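import Vale.Agent.Lib.P062.Defs

namespace Vale.Agent.Lib.P062

variable {α : Type} [DecidableEq α] {board : Set α} {win : Set (Finset α)}

/-- Extra Breaker cells never help Maker. -/
theorem MakerWins.mono_B {M B' : Finset α} (h : MakerWins board win M B') :
    ∀ B : Finset α, B ⊆ B' → MakerWins board win M B := by
  induction h with
  | finish M B' x hx hxM hxB A hA hsub =>
    intro B hB
    exact MakerWins.finish M B x hx hxM (fun h => hxB (hB h)) A hA hsub
  | step M B' x hx hxM hxB y₀ hy₀ hy₀M hy₀B h ih =>
    intro B hB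
    refine MakerWins.step M B x hx hxM (fun h => hxB (hB h)) y₀ hy₀ hy₀M
      (fun h => hy₀B (hB h)) ?_
    intro y hy hyM hyB
    by_cases hyB' : y ∈ B'
    · refine ih y₀ hy₀ hy₀M hy₀B _ ?_
      intro z hz
      rcases Finset.mem_insert.mp hz with rfl | hz
      · exact Finset.mem_insert_of_mem hyB'
      · exact Finset.mem_insert_of_mem (hB hz)
    · exact ih y hy hyM hyB' _ (Finset.insert_subset_insert _ hB)

/-- Invariant principle for Breaker. -/
theorem not_makerWins_of_inv (Inv : Finset α → Finset α → Prop)
    (h1 : ∀ M B x, Inv M B → x ∈ board → x ∉ M → x ∉ B → ∀ A ∈ win, ¬ A ⊆ insert x M)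
    (h2 : ∀ M B x y₀, Inv M B → x ∈ board → x ∉ M → x ∉ B → y₀ ∈ board → y₀ ∉ insert x M →
      y₀ ∉ B → ∃ y ∈ board, y ∉ insert x M ∧ y ∉ B ∧ Inv (insert x M) (insert y B))
    {M B : Finset α} (h : MakerWins board win M B) : ¬ Inv M B := by
  induction h with
  | finish M B x hx hxM hxB A hA hsub =>
    intro hI
    exact h1 M B x hI hx hxM hxB A hA hsub
  | step M B x hx hxM hxB y₀ hy₀ hy₀M hy₀B h ih =>
    intro hI
    obtain ⟨y, hy, hyM, hyB, hI'⟩ := h2 M B x y₀ hI hx hxM hxB hy₀ hy₀M hy₀B
    exact ih y hy hyM hyB hI'

/-- Decomposition into local games: if the board is cut into tiles, every winning set inside the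
board contains a local winning set of some tile, and Maker (moving first) wins none of the
local games, then Maker does not win the global game. -/
theorem decomposition {ι : Type} [DecidableEq ι] (tile : α → ι) (winT : ι → Set (Finset α))
    (hcover : ∀ A ∈ win, (∀ c ∈ A, c ∈ board) →
      ∃ T, ∃ A' ∈ winT T, A' ⊆ A ∧ ∀ c ∈ A', tile c = T)
    (hlocal : ∀ T, ¬ MakerWins {c | c ∈ board ∧ tile c = T} (winT T) ∅ ∅)
    (hne : ∀ T, ∅ ∉ winT T) :
    ¬ MakerWins board win ∅ ∅ := by
  intro hW
  refine not_makerWins_of_inv
    (fun M B => (∀ c ∈ M, c ∈ board) ∧ ∀ T,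
      (¬ MakerWins {c | c ∈ board ∧ tile c = T} (winT T)
        (M.filter (fun c => tile c = T)) (B.filter (fun c => tile c = T))) ∧
      ∀ A' ∈ winT T, ¬ A' ⊆ M.filter (fun c => tile c = T)) ?_ ?_ hW ?_
  · -- no winning set is completed
    rintro M B x ⟨hMb, hI⟩ hx hxM hxB A hA hsub
    obtain ⟨T, A', hA', hA'A, hA'T⟩ := hcover A hA (by
      intro c hc
      rcases Finset.mem_insert.mp (hsub hc) with rfl | h
      · exact hx
      · exact hMb c h)
    by_cases hxT : tile x = T
    · apply (hI T).1
      refine MakerWins.finish _ _ x ⟨hx, hxT⟩ (by simp [hxM]) (by simp [hxB]) A' hA' ?_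
      intro c hc
      rcases Finset.mem_insert.mp (hsub (hA'A hc)) with rfl | h
      · exact Finset.mem_insert_self _ _
      · exact Finset.mem_insert_of_mem (Finset.mem_filter.mpr ⟨h, hA'T c hc⟩)
    · apply (hI T).2 A' hA'
      intro c hc
      rcases Finset.mem_insert.mp (hsub (hA'A hc)) with rfl | h
      · exact absurd (hA'T _ hc) hxT
      · exact Finset.mem_filter.mpr ⟨h, hA'T c hc⟩
  · -- Breaker has a reply keeping the invariant
    rintro M B x y₀ ⟨hMb, hI⟩ hx hxM hxB hy₀ hy₀M hy₀B
    have hMb' : ∀ c ∈ insert x M, c ∈ board := by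
      intro c hc
      rcases Finset.mem_insert.mp hc with rfl | h
      · exact hx
      · exact hMb c h
    set T₀ := tile x with hT₀
    have hfM : ∀ T, (insert x M).filter (fun c => tile c = T)
        = if T = T₀ then insert x (M.filter (fun c => tile c = T))
          else M.filter (fun c => tile c = T) := by
      intro T
      rw [Finset.filter_insert]
      by_cases h : T = T₀
      · simp [h, hT₀]
      · have : ¬ tile x = T := fun h' => h (h'.symm.trans hT₀.symm ▸ rfl)
        simp [h, this]
    have hfB : ∀ (y : α) T, (insert y B).filter (fun c => tile c = T)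
        = if tile y = T then insert y (B.filter (fun c => tile c = T))
          else B.filter (fun c => tile c = T) := by
      intro y T
      rw [Finset.filter_insert]
    -- second part of the invariant after the move x
    have hsecond : ∀ T, ∀ A' ∈ winT T, ¬ A' ⊆ (insert x M).filter (fun c => tile c = T) := by
      intro T A' hA' hsub
      rw [hfM] at hsub
      by_cases h : T = T₀
      · rw [if_pos h] at hsub
        apply (hI T).1
        exact MakerWins.finish _ _ x ⟨hx, by rw [h]⟩ (by simp [hxM]) (by simp [hxB]) A' hA' hsub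
      · rw [if_neg h] at hsub
        exact (hI T).2 A' hA' hsub
    by_cases hex : ∃ y, y ∈ board ∧ tile y = T₀ ∧ y ∉ insert x M ∧ y ∉ B
    · -- there is a free cell in the tile
      have : ∃ y, y ∈ board ∧ tile y = T₀ ∧ y ∉ insert x M ∧ y ∉ B ∧
          ¬ MakerWins {c | c ∈ board ∧ tile c = T₀} (winT T₀)
            (insert x (M.filter (fun c => tile c = T₀)))
            (insert y (B.filter (fun c => tile c = T₀))) := by
        by_contra hcon
        push Not at hcon
        obtain ⟨y₁, hy₁, hy₁T, hy₁M, hy₁B⟩ := hex
        apply (hI T₀).1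
        refine MakerWins.step _ _ x ⟨hx, rfl⟩ (by simp [hxM]) (by simp [hxB]) y₁ ⟨hy₁, hy₁T⟩ ?_
          (by simp [hy₁B]) ?_
        · intro h
          rcases Finset.mem_insert.mp h with rfl | h
          · exact hy₁M (Finset.mem_insert_self _ _)
          · exact hy₁M (Finset.mem_insert_of_mem (Finset.mem_filter.mp h).1)
        · rintro y ⟨hy, hyT⟩ hyM hyB
          refine hcon y hy hyT ?_ ?_
          · intro h
            rcases Finset.mem_insert.mp h with rfl | h
            · exact hyM (Finset.mem_insert_self _ _)
            · exact hyM (Finset.mem_insert_of_mem (Finset.mem_filter.mpr ⟨h, hyT⟩))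
          · intro h
            exact hyB (Finset.mem_filter.mpr ⟨h, hyT⟩)
      obtain ⟨y, hy, hyT, hyM, hyB, hnw⟩ := this
      refine ⟨y, hy, hyM, hyB, hMb', ?_⟩
      intro T
      refine ⟨?_, hsecond T⟩
      rw [hfM, hfB]
      by_cases h : T = T₀
      · subst h
        rw [if_pos rfl, if_pos hyT]
        exact hnw
      · rw [if_neg h, if_neg (fun h' => h (h'.symm.trans hyT))]
        exact (hI T).1
    · -- the tile is full: Breaker plays y₀ elsewhere
      push Not at hex
      refine ⟨y₀, hy₀, hy₀M, hy₀B, hMb', ?_⟩
      intro T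
      refine ⟨?_, hsecond T⟩
      rw [hfM, hfB]
      by_cases h : T = T₀
      · subst h
        rw [if_pos rfl]
        have hfull : ∀ z, z ∈ board → tile z = T₀ → z ∉ insert x (M.filter (fun c => tile c = T₀))
            → z ∈ B := by
          intro z hz hzT hzM
          refine hex z hz hzT ?_
          intro h
          rcases Finset.mem_insert.mp h with rfl | h
          · exact hzM (Finset.mem_insert_self _ _)
          · exact hzM (Finset.mem_insert_of_mem (Finset.mem_filter.mpr ⟨h, hzT⟩))
        intro hw
        cases hw with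
        | finish _ _ z hz hzM hzB A hA hsub =>
          apply hzB
          have := hfull z hz.1 hz.2 hzM
          split_ifs
          · exact Finset.mem_insert_of_mem (Finset.mem_filter.mpr ⟨this, hz.2⟩)
          · exact Finset.mem_filter.mpr ⟨this, hz.2⟩
        | step _ _ z hz hzM hzB _ _ _ _ _ =>
          apply hzB
          have := hfull z hz.1 hz.2 hzM
          split_ifs
          · exact Finset.mem_insert_of_mem (Finset.mem_filter.mpr ⟨this, hz.2⟩)
          · exact Finset.mem_filter.mpr ⟨this, hz.2⟩
      · rw [if_neg h]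
        split_ifs
        · intro hw
          exact (hI T).1 (hw.mono_B _ (Finset.subset_insert _ _))
        · exact (hI T).1
  · refine ⟨by simp, fun T => ⟨by simpa using hlocal T, ?_⟩⟩
    intro A' hA' hsub
    have : A' = ∅ := by simpa using hsub
    exact hne T (this ▸ hA')

end Vale.Agent.Lib.P062
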