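import Mathlib

/-!
Definitions for the Snaky achievement game (P062): the Maker-Breaker game on a board,
the hexomino Snaky and its allowed copies.
-/

namespace Vale.Agent.Lib.P062

/-- `MakerWins board win M B`: in the Maker-Breaker game played on the cells of `board` with
winning sets `win`, from the position in which Maker owns `M`, Breaker owns `B` and Maker is to
move, Maker can force a win after finitely many turns.  Either Maker claims a free cell `x` and
then owns a winning set, or Maker claims a free cell `x`, Breaker still has a free cell `y₀` to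
claim, and Maker wins after every legal reply `y` of Breaker. -/
inductive MakerWins {α : Type} [DecidableEq α] (board : Set α) (win : Set (Finset α)) :
    Finset α → Finset α → Prop
  | finish (M B : Finset α) (x : α) (hx : x ∈ board) (hxM : x ∉ M) (hxB : x ∉ B)
      (A : Finset α) (hA : A ∈ win) (hsub : A ⊆ insert x M) : MakerWins board win M B
  | step (M B : Finset α) (x : α) (hx : x ∈ board) (hxM : x ∉ M) (hxB : x ∉ B)
      (y₀ : α) (hy₀ : y₀ ∈ board) (hy₀M : y₀ ∉ insert x M) (hy₀B : y₀ ∉ B)
      (h : ∀ y ∈ board, y ∉ insert x M → y ∉ B →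
        MakerWins board win (insert x M) (insert y B)) : MakerWins board win M B

/-- The hexomino Snaky. -/
def snaky : Finset (ℤ × ℤ) := {(0, 0), (1, 0), (2, 0), (3, 0), (3, 1), (4, 1)}

/-- The allowed copies of Snaky: images under a signed permutation matrix followed by a
translation. -/
def copies : Set (Finset (ℤ × ℤ)) :=
  {A | ∃ (t : ℤ × ℤ) (a b : ℤ) (sw : Bool), (a = 1 ∨ a = -1) ∧ (b = 1 ∨ b = -1) ∧
    A = snaky.image (fun p =>
      if sw then (t.1 + a * p.2, t.2 + b * p.1) else (t.1 + a * p.1, t.2 + b * p.2))}

/-- The infinite horizontal strip of height `h`: cells `(x, y)` with `0 ≤ y < h`. -/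
def strip (h : ℕ) : Set (ℤ × ℤ) := {p | 0 ≤ p.2 ∧ p.2 < h}

end Vale.Agent.Lib.P062
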