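import Vale.Agent.Lib.P062.Basic

namespace Vale.Agent.Lib.P062

/-- pairing corollary of the decomposition theorem -/
theorem pairing {α : Type} [DecidableEq α] {board : Set α} {win : Set (Finset α)}
    (mate : α → α)
    (hb : ∀ c ∈ board, mate c ∈ board) (hinv : ∀ c ∈ board, mate (mate c) = c)
    (hne : ∀ c ∈ board, mate c ≠ c)
    (hcover : ∀ A ∈ win, (∀ c ∈ A, c ∈ board) → ∃ c ∈ A, mate c ∈ A) :
    ¬ MakerWins board win ∅ ∅ := by
  classical
  refine decomposition (ι := Finset α) (fun c => {c, mate c})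
    (fun T => {A | A = T ∧ ∃ c ∈ board, T = {c, mate c}}) ?_ ?_ ?_
  · intro A hA hAb
    obtain ⟨c, hc, hmc⟩ := hcover A hA hAb
    refine ⟨{c, mate c}, {c, mate c}, ⟨rfl, c, hAb c hc, rfl⟩, ?_, ?_⟩
    · intro z hz
      rcases Finset.mem_insert.mp hz with rfl | hz
      · exact hc
      · rw [Finset.mem_singleton.mp hz]; exact hmc
    · intro z hz
      rcases Finset.mem_insert.mp hz with rfl | hz
      · rfl
      · rw [Finset.mem_singleton.mp hz, hinv c (hAb c hc)]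
        exact Finset.pair_comm _ _
  · intro T hW
    cases hW with
    | finish _ _ x hx _ _ A hA hsub =>
      obtain ⟨rfl, -⟩ := hA
      have h1 : mate x ∈ ({x, mate x} : Finset α) := by simp
      rw [hx.2] at h1
      have := hsub h1
      simp at this
      exact hne x hx.1 this
    | step _ _ x hx _ _ y₀ _ _ _ h =>
      have hmx : mate x ∈ {c | c ∈ board ∧ ({c, mate c} : Finset α) = T} := by
        refine ⟨hb x hx.1, ?_⟩
        rw [hinv x hx.1, Finset.pair_comm]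
        exact hx.2
      have h2 := h (mate x) hmx (by simpa using hne x hx.1) (by simp)
      have hocc : ∀ z, z ∈ {c | c ∈ board ∧ ({c, mate c} : Finset α) = T} →
          z ∉ insert x (∅ : Finset α) → z ∈ insert (mate x) (∅ : Finset α) := by
        intro z hz hzx
        have h3 : z ∈ ({z, mate z} : Finset α) := by simp
        rw [hz.2, ← hx.2] at h3
        rcases Finset.mem_insert.mp h3 with rfl | h3
        · exact absurd (Finset.mem_insert_self _ _) hzx
        · simpa using h3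
      cases h2 with
      | finish _ _ z hz hzM hzB _ _ _ => exact hzB (hocc z hz hzM)
      | step _ _ z hz hzM hzB _ _ _ _ _ => exact hzB (hocc z hz hzM)
  · intro T hT
    obtain ⟨h1, c, -, h2⟩ := hT
    have : c ∈ (∅ : Finset α) := by rw [h1, h2]; simp
    simp at this


/-- the copy of Snaky with parameters t a b sw -/
def cp (t : ℤ × ℤ) (a b : ℤ) (sw : Bool) : Finset (ℤ × ℤ) :=
  snaky.image (fun p =>
      if sw then (t.1 + a * p.2, t.2 + b * p.1) else (t.1 + a * p.1, t.2 + b * p.2))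

def mate5 (c : ℤ × ℤ) : ℤ × ℤ :=
  if c.2 = 2 then (if c.1 % 2 = 0 then (c.1 + 1, 2) else (c.1 - 1, 2))
  else if c.1 % 3 = 0 then (c.1 + 1, c.2)
  else if c.1 % 3 = 1 then (c.1 - 1, c.2)
  else (c.1, if c.2 = 0 then 1 else if c.2 = 1 then 0 else if c.2 = 3 then 4 else 3)

theorem mate5_shift (c : ℤ × ℤ) (q : ℤ) :
    mate5 (c.1 + 6 * q, c.2) = ((mate5 c).1 + 6 * q, (mate5 c).2) := by
  have h2 : (c.1 + 6 * q) % 2 = c.1 % 2 := by omega
  have h3 : (c.1 + 6 * q) % 3 = c.1 % 3 := by omega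
  unfold mate5
  simp only [h2, h3]
  split_ifs <;> simp <;> ring

theorem cp_shift (t : ℤ × ℤ) (a b : ℤ) (sw : Bool) (q : ℤ) (c : ℤ × ℤ)
    (hc : c ∈ cp t a b sw) : (c.1 + 6 * q, c.2) ∈ cp (t.1 + 6 * q, t.2) a b sw := by
  unfold cp at *
  obtain ⟨p, hp, rfl⟩ := Finset.mem_image.mp hc
  refine Finset.mem_image.mpr ⟨p, hp, ?_⟩
  cases sw <;> simp <;> ring

theorem finite_check : ∀ r ∈ Finset.Ico (0 : ℤ) 6, ∀ ty ∈ Finset.Ico (0 : ℤ) 5,
    ∀ a ∈ ({1, -1} : Finset ℤ), ∀ b ∈ ({1, -1} : Finset ℤ), ∀ sw : Bool,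
    (∀ c ∈ cp (r, ty) a b sw, 0 ≤ c.2 ∧ c.2 < 5) →
      ∃ c ∈ cp (r, ty) a b sw, mate5 c ∈ cp (r, ty) a b sw := by
  decide +kernel


theorem mate5_mem (c : ℤ × ℤ) (hc : c ∈ strip 5) : mate5 c ∈ strip 5 := by
  obtain ⟨x, y⟩ := c
  simp only [strip, Set.mem_ofPred_eq] at hc ⊢
  unfold mate5
  split_ifs <;> simp <;> omega

theorem mate5_inv (c : ℤ × ℤ) (hc : c ∈ strip 5) : mate5 (mate5 c) = c := by
  obtain ⟨x, y⟩ := c
  simp only [strip, Set.mem_ofPred_eq] at hc
  have hy : y = 0 ∨ y = 1 ∨ y = 2 ∨ y = 3 ∨ y = 4 := by omega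
  have h2 : x % 2 = 0 ∨ x % 2 = 1 := by omega
  have h3 : x % 3 = 0 ∨ x % 3 = 1 ∨ x % 3 = 2 := by omega
  rcases hy with rfl | rfl | rfl | rfl | rfl
  all_goals
    rcases h2 with h2 | h2 <;> rcases h3 with h3 | h3 | h3 <;>
    · have e1 : (x + 1) % 2 = (x % 2 + 1) % 2 := by omega
      have e2 : (x - 1) % 2 = (x % 2 + 1) % 2 := by omega
      have e3 : (x + 1) % 3 = (x % 3 + 1) % 3 := by omega
      have e4 : (x - 1) % 3 = (x % 3 + 2) % 3 := by omega
      simp [mate5, h2, h3, e1, e2, e3, e4]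

theorem mate5_ne (c : ℤ × ℤ) (hc : c ∈ strip 5) : mate5 c ≠ c := by
  obtain ⟨x, y⟩ := c
  simp only [strip, Set.mem_ofPred_eq] at hc
  unfold mate5
  split_ifs <;> simp [Prod.ext_iff] <;> omega

theorem strip5 : ¬ MakerWins (strip 5) copies ∅ ∅ := by
  refine pairing mate5 mate5_mem mate5_inv mate5_ne ?_
  rintro A ⟨t, a, b, sw, ha, hb, rfl⟩ hin
  change ∀ c ∈ cp t a b sw, c ∈ strip 5 at hin
  change ∃ c ∈ cp t a b sw, mate5 c ∈ cp t a b sw
  obtain ⟨tx, ty⟩ := t
  have ht : (tx, ty) ∈ cp (tx, ty) a b sw := by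
    unfold cp
    refine Finset.mem_image.mpr ⟨(0, 0), by decide, ?_⟩
    cases sw <;> simp
  have hty := hin _ ht
  simp only [strip, Set.mem_ofPred_eq] at hty
  have hsplit : tx = tx % 6 + 6 * (tx / 6) := by omega
  have hbase : ∀ c ∈ cp (tx % 6, ty) a b sw, 0 ≤ c.2 ∧ c.2 < 5 := by
    intro c hc
    have := cp_shift (tx % 6, ty) a b sw (tx / 6) c hc
    simp only [← hsplit] at this
    have := hin _ this
    simpa [strip] using this
  obtain ⟨c, hc, hmc⟩ := finite_check (tx % 6) (by simp; omega) ty (by simp; omega) a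
    (by simp; tauto) b (by simp; tauto) sw hbase
  refine ⟨(c.1 + 6 * (tx / 6), c.2), ?_, ?_⟩
  · have := cp_shift (tx % 6, ty) a b sw (tx / 6) c hc
    simpa only [← hsplit] using this
  · rw [mate5_shift]
    have := cp_shift (tx % 6, ty) a b sw (tx / 6) _ hmc
    simpa only [← hsplit] using this

end Vale.Agent.Lib.P062
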